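import Vale.Agent.P280.H644.Asm
import Vale.Agent.P280.H587.Ext
import Vale.Agent.P280.T.Ext3

/-! P280: Theorem I from (s3) of row R3 alone. -/

open Vale.Agent.P280.T

namespace Vale.Agent.P280.H644

theorem r4 : R4 := by
  intro R _ _ 𝒜 _ hX p μ a ha hp f hf hf0 hlow hspan hall N D1 hD1 h
  refine extension hX ha hall hf hf0 ?_ (fun m h hh hne => by simpa using hlow 1 m h hh hne) N D1
    hD1 h
  intro h hh
  obtain ⟨c, hc⟩ := hspan 1 h (by simpa using hh)
  exact ⟨c, by simpa using hc⟩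

theorem theoremI_of_S3 (h3 : S3) : H587.TheoremI :=
  fun R _ _ 𝒜 _ hX hN p μ a ha hp x ν hx hx' =>
    theoremI_of_S3_R4 h3 r4 R 𝒜 hX hN p μ a ha hp x ν hx hx'

end Vale.Agent.P280.H644
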