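import Vale.Agent.P280.H644.X2
import Vale.Agent.P280.H812.X3

/-!
# P280, homotheties at an isolated fixed point: row B, (X3)

Along the orbit of a point `z` of the minus cell of `x` the tangent vectors of weight `-a` at the
lowest limit of `z` come from tangent vectors of the minus cell.
-/

namespace Vale.Agent.P280.X

open Vale.Agent.P280.T Vale.Agent.P280.H939 Vale.Agent.P280.H812 MvPolynomial

section poly
variable {s : ℕ}

theorem coeff_single_eq (i : Fin s) (P : MvPolynomial (Fin s) ℂ) :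
    coeff (Finsupp.single i 1) P = constantCoeff (pderiv i P) := by
  have h1 := coeff_pderiv (i := i) P 0
  rw [zero_add, Finsupp.coe_zero, Pi.zero_apply, Nat.cast_zero, zero_add, mul_one] at h1
  rw [← h1]
  rfl

theorem coeff_single_mul (i : Fin s) (P Q : MvPolynomial (Fin s) ℂ) :
    coeff (Finsupp.single i 1) (P * Q) =
      constantCoeff P * coeff (Finsupp.single i 1) Q +
        constantCoeff Q * coeff (Finsupp.single i 1) P := by
  rw [coeff_single_eq, coeff_single_eq, coeff_single_eq, pderiv_mul, map_add, map_mul, map_mul]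
  ring

/-- A tangent vector at the origin in coordinates. -/
theorem tangent_origin {w : MvPolynomial (Fin s) ℂ →ₗ[ℂ] ℂ}
    (hw : ∀ P Q, w (P * Q) = constantCoeff P * w Q + constantCoeff Q * w P)
    (P : MvPolynomial (Fin s) ℂ) :
    w P = ∑ i, w (X i) * coeff (Finsupp.single i 1) P := by
  have h1 : w 1 = 0 := by
    have h0 := hw 1 1
    have h2 : constantCoeff (1 : MvPolynomial (Fin s) ℂ) = 1 := map_one _
    rw [mul_one, h2, one_mul] at h0
    linear_combination -h0
  have hC : ∀ c : ℂ, w (C c) = 0 := by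
    intro c
    have h2 : (C c : MvPolynomial (Fin s) ℂ) = c • 1 := by
      rw [MvPolynomial.smul_eq_C_mul, mul_one]
    rw [h2, map_smul, h1, smul_zero]
  induction P using MvPolynomial.induction_on with
  | C c =>
    rw [hC]
    symm
    apply Finset.sum_eq_zero
    intro i _
    rw [coeff_single_eq, pderiv_C, map_zero, mul_zero]
  | add P Q hP hQ =>
    rw [map_add, hP, hQ, ← Finset.sum_add_distrib]
    refine Finset.sum_congr rfl fun i _ => ?_
    rw [coeff_add, mul_add]
  | mul_X P j hP =>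
    rw [hw, hP, constantCoeff_X, zero_mul, add_zero]
    have h2 : ∀ i, w (X i) * coeff (Finsupp.single i 1) (P * X j) =
        if i = j then constantCoeff P * w (X j) else 0 := by
      intro i
      rw [coeff_single_mul, constantCoeff_X, zero_mul, add_zero, coeff_single_eq]
      by_cases hij : i = j
      · subst hij
        rw [pderiv_X_self, if_pos rfl, map_one]
        ring
      · rw [pderiv_X_of_ne (fun h => hij h.symm), if_neg hij, map_zero]
        ring
    rw [Finset.sum_congr rfl fun i _ => h2 i, Finset.sum_ite_eq', if_pos (Finset.mem_univ j)]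

theorem shift_X (κ : Fin s → ℂ) (i : Fin s) : shift κ (X i) = X i + C (κ i) := aeval_X _ _

theorem shift_C (κ : Fin s → ℂ) (c : ℂ) : shift κ (C c) = C c := aeval_C _ _

theorem constantCoeff_shift (κ : Fin s → ℂ) (P : MvPolynomial (Fin s) ℂ) :
    constantCoeff (shift κ P) = MvPolynomial.aeval κ P := by
  induction P using MvPolynomial.induction_on with
  | C c =>
    rw [shift_C, aeval_C]
    exact constantCoeff_C _ _
  | add P Q hP hQ => rw [map_add, map_add, map_add, hP, hQ]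
  | mul_X P j hP =>
    rw [map_mul, map_mul, map_mul, hP, aeval_X, shift_X, map_add, constantCoeff_X,
      constantCoeff_C, zero_add]

theorem shift_surjective (κ : Fin s → ℂ) : Function.Surjective (shift κ) := by
  intro P
  refine ⟨shift (-κ) P, ?_⟩
  have h1 : (shift κ).comp (shift (-κ)) = AlgHom.id ℂ (MvPolynomial (Fin s) ℂ) := by
    apply MvPolynomial.algHom_ext
    intro i
    rw [AlgHom.comp_apply, shift_X, map_add, shift_X, shift_C, AlgHom.id_apply,
      Pi.neg_apply, map_neg]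
    ring
  exact DFunLike.congr_fun h1 P

theorem shift_injective (κ : Fin s → ℂ) : Function.Injective (shift κ) := by
  have h1 : (shift (-κ)).comp (shift κ) = AlgHom.id ℂ (MvPolynomial (Fin s) ℂ) := by
    apply MvPolynomial.algHom_ext
    intro i
    rw [AlgHom.comp_apply, shift_X, map_add, shift_X, shift_C, AlgHom.id_apply,
      Pi.neg_apply, map_neg]
    ring
  intro P Q h
  have h2 := congrArg (shift (-κ)) h
  rwa [← AlgHom.comp_apply, ← AlgHom.comp_apply, h1] at h2

end poly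

section
variable {R : Type} [CommRing R] [Algebra ℂ R]
variable {𝒜 : ℕ × ℤ → Submodule ℂ R} [GradedAlgebra 𝒜] {a ν ν0 : ℤ} {z x0 : R →ₐ[ℂ] ℂ}

/-- A linear form which is a derivation along `Z` at the origin and kills the kernel of the
surjection `Z`. -/
theorem exists_direction {s : ℕ} {Z : R →ₐ[ℂ] MvPolynomial (Fin s) ℂ}
    (hZ : Function.Surjective Z) {c : R →ₗ[ℂ] ℂ}
    (hc : ∀ g h, c (g * h) = constantCoeff (Z g) * c h + constantCoeff (Z h) * c g)
    (hker : ∀ h, Z h = 0 → c h = 0) :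
    ∃ κ' : Fin s → ℂ, ∀ h, c h = ∑ i, κ' i * coeff (Finsupp.single i 1) (Z h) := by
  obtain ⟨g, hg⟩ := Z.toLinearMap.exists_rightInverse_of_surjective (LinearMap.range_eq_top.2 hZ)
  have hg' : ∀ P, Z (g P) = P := fun P => LinearMap.congr_fun hg P
  have hcg : ∀ h, c (g (Z h)) = c h := by
    intro h
    rw [← sub_eq_zero, ← map_sub]
    apply hker
    rw [map_sub, hg', sub_self]
  refine ⟨fun i => c (g (X i)), fun h => ?_⟩
  rw [← hcg h]
  refine tangent_origin (w := c ∘ₗ g) ?_ (Z h)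
  intro P Q
  change c (g (P * Q)) = constantCoeff P * c (g Q) + constantCoeff Q * c (g P)
  have h1 := hc (g P) (g Q)
  rw [hg', hg'] at h1
  have h2 : Z (g P * g Q) = P * Q := by rw [map_mul, hg', hg']
  rw [← h1, ← hcg (g P * g Q), h2]

open H644 in
/-- Lifting of a tangent vector at the highest limit, with both bounds. -/
theorem exists_lift2 {deg : ℕ × ℤ →+ ℕ} {wt : ℕ × ℤ →+ ℤ} (hfree : FreeCurves 𝒜 deg) {μ : ℤ}
    (hμν : μ ≤ ν)
    (hα : Supp 𝒜 z (slope deg wt μ)) (hβ : Supp 𝒜 z (-slope deg wt ν))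
    (h1 : ∃ i, 0 < deg i ∧ slope deg wt μ i = 0 ∧ ∃ h ∈ 𝒜 i, z h ≠ 0)
    (h2 : ∃ i, 0 < deg i ∧ slope deg wt ν i = 0 ∧ ∃ h ∈ 𝒜 i, z h ≠ 0)
    {w : ℤ} {v : R →ₗ[ℂ] ℂ} (hv : IsDer (lim 𝒜 hβ) v) :
    ∃ c : R →ₗ[ℂ] ℂ, IsDer z c ∧ (∀ i, ∀ h ∈ 𝒜 i, c h ≠ 0 → w ≤ slope deg wt μ i) ∧
      (∀ i, ∀ h ∈ 𝒜 i, c h ≠ 0 → slope deg wt ν i ≤ w) ∧
      ∀ i, ∀ h ∈ 𝒜 i, wt i = ν * deg i + w → c h = v h := by
  have hsum : ∀ i, slope deg wt μ i + (-slope deg wt ν) i = ((deg i * (ν - μ).toNat : ℕ) : ℤ) := by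
    intro i
    rw [AddMonoidHom.neg_apply, slope_apply, slope_apply, Nat.cast_mul, Int.toNat_of_nonneg
      (by omega)]
    ring
  have hp : (![1, 0] : Fin 2 → ℂ) ≠ 0 := by
    intro h
    simpa using congr_fun h 0
  obtain ⟨δ, hδ, hδh, hδv⟩ := hfree (ν - μ).toNat (curve 𝒜 hα hβ)
    (fun i h hh => isHomogeneous_curve 𝒜 hα hβ hh (hsum i)) (by
      intro p hp
      by_cases hp0 : p 0 = 0
      · have hp1 : p 1 ≠ 0 := by
          intro hp1
          apply hp
          ext i
          fin_cases i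
          · exact hp0
          · exact hp1
        obtain ⟨i, hi, hsi, h, hh, hz⟩ := h1
        refine ⟨i, hi, h, hh, ?_⟩
        rw [curve_mem 𝒜 hα hβ hh, MvPolynomial.aeval_monomial, hsi]
        simp [ex, Finsupp.prod_fintype, Fin.prod_univ_two, hz, hp1]
      · obtain ⟨i, hi, hsi, h, hh, hz⟩ := h2
        refine ⟨i, hi, h, hh, ?_⟩
        rw [curve_mem 𝒜 hα hβ hh, MvPolynomial.aeval_monomial, AddMonoidHom.neg_apply, hsi]
        simp [ex, Finsupp.prod_fintype, Fin.prod_univ_two, hz, hp0])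
    ![1, 0] hp v (by
      intro f g
      rw [AlgHom.comp_apply, AlgHom.comp_apply, curve_one_zero, curve_one_zero]
      exact hv f g)
  refine ⟨comp 𝒜 (slope deg wt μ) (-slope deg wt ν) w δ, isDer_comp 𝒜 hα hβ w hδ, ?_, ?_, ?_⟩
  · intro i h hh hc
    rw [comp_mem 𝒜 _ _ _ _ hh] at hc
    by_contra hcon
    rw [if_neg (by omega)] at hc
    exact hc rfl
  · intro i h hh hc
    rw [comp_mem 𝒜 _ _ _ _ hh] at hc
    by_contra hcon
    rw [if_neg (by
      rw [AddMonoidHom.neg_apply]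
      omega)] at hc
    exact hc rfl
  · intro i h hh hi
    have h3 : (-slope deg wt ν) i + w = 0 := by
      rw [AddMonoidHom.neg_apply, slope_apply]
      linarith
    have h4 := hsum i
    rw [comp_mem 𝒜 _ _ _ _ hh, if_pos ⟨by omega, by omega⟩, ← hδv h, aeval_ex (hδh i h hh)]
    congr 2
    · omega
    · omega

/-- The slope of the opposite grading. -/
theorem slope_op (ξ : ℤ) (d : ℕ) (m : ℤ) :
    H644.slope H644.dg (-H644.wg) (-ξ) (d, m) = (d : ℤ) * ξ - m := by
  rw [H644.slope_apply, AddMonoidHom.neg_apply]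
  simp only [AddMonoidHom.coe_fst, AddMonoidHom.coe_snd]
  ring

/-- Lifting of a tangent vector of weight `-w` at the lowest limit of `z` to a tangent vector
at `z`. -/
theorem exists_lift_low (hN : NefOnRationalCurves 𝒜) (hle : ν0 ≤ ν) (H : IsLow 𝒜 z x0 ν0)
    (hhigh : ∀ (d : ℕ) (m : ℤ), (d : ℤ) * ν < m → ∀ h ∈ 𝒜 (d, m), z h = 0)
    (h1 : ∃ h ∈ 𝒜 (1, ν), z h ≠ 0) (h2 : ∃ h ∈ 𝒜 (1, ν0), z h ≠ 0) (w : ℤ) {v : R →ₗ[ℂ] ℂ}
    (hv : IsTangent x0 v) :
    ∃ c : R →ₗ[ℂ] ℂ, IsTangent z c ∧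
      (∀ (d : ℕ) (m : ℤ), (d : ℤ) * ν - w < m → ∀ h ∈ 𝒜 (d, m), c h = 0) ∧
      (∀ (d : ℕ) (m : ℤ), m < (d : ℤ) * ν0 - w → ∀ h ∈ 𝒜 (d, m), c h = 0) ∧
      ∀ (d : ℕ) (m : ℤ), m = (d : ℤ) * ν0 - w → ∀ h ∈ 𝒜 (d, m), c h = v h := by
  have hα : H644.Supp 𝒜 z (H644.slope H644.dg (-H644.wg) (-ν)) := by
    rintro ⟨d, m⟩ h hh hne
    rw [slope_op]
    by_contra hcon
    exact hne (hhigh d m (by linarith) h hh)
  have hβ : H644.Supp 𝒜 z (-H644.slope H644.dg (-H644.wg) (-ν0)) := by
    rintro ⟨d, m⟩ h hh hne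
    rw [AddMonoidHom.neg_apply, slope_op]
    by_contra hcon
    exact hne (H.low d m (by linarith) h hh)
  have hlim : H644.lim 𝒜 hβ = x0 := by
    refine algHom_ext_graded 𝒜 ?_
    rintro ⟨d, m⟩ h hh
    rw [H644.lim_mem 𝒜 hβ hh, AddMonoidHom.neg_apply, slope_op]
    by_cases hm : m = (d : ℤ) * ν0
    · rw [if_pos (by linarith)]
      subst hm
      exact H.eq d h hh
    · rw [if_neg (by intro h3; exact hm (by linarith))]
      by_contra hne
      have h4 := H.fix d m h hh (fun h5 => hne h5.symm)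
      rw [nsmul_eq_mul] at h4
      exact hm h4
  obtain ⟨c, hc, hc1, hc2, hc3⟩ := exists_lift2 (H644.freeCurves hN) (ν := -ν0) (μ := -ν)
    (by linarith) hα hβ
    (by
      obtain ⟨h, hh, hne⟩ := h1
      refine ⟨(1, ν), one_pos, ?_, h, hh, hne⟩
      rw [slope_op]
      push_cast
      ring)
    (by
      obtain ⟨h, hh, hne⟩ := h2
      refine ⟨(1, ν0), one_pos, ?_, h, hh, hne⟩
      rw [slope_op]
      push_cast
      ring) (w := w) (v := v) (by
      rw [hlim]
      exact hv)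
  refine ⟨c, hc, ?_, ?_, ?_⟩
  · intro d m hm h hh
    by_contra hne
    have h3 := hc1 (d, m) h hh hne
    rw [slope_op] at h3
    linarith
  · intro d m hm h hh
    by_contra hne
    have h3 := hc2 (d, m) h hh hne
    rw [slope_op] at h3
    linarith
  · intro d m hm h hh
    refine hc3 (d, m) h hh ?_
    rw [AddMonoidHom.neg_apply]
    simp only [AddMonoidHom.coe_fst, AddMonoidHom.coe_snd]
    rw [hm]
    ring

end

end Vale.Agent.P280.X
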