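import Vale.Agent.P280.H644.RowB

/-!
# P280, homotheties at an isolated fixed point: row B, conclusion
-/

namespace Vale.Agent.P280.X

open Vale.Agent.P280.T Vale.Agent.P280.H939 Vale.Agent.P280.H812 MvPolynomial

section
variable {R : Type} [CommRing R] [Algebra ℂ R]
variable {𝒜 : ℕ × ℤ → Submodule ℂ R} [GradedAlgebra 𝒜] {p : R →ₐ[ℂ] ℂ} {μ a : ℤ} {f : R}

theorem dvd_rel (H : Hom 𝒜 p μ a f) {d : ℕ} {m : ℤ} {h : R} (hh : h ∈ 𝒜 (d, m)) (hne : h ≠ 0) :
    a ∣ m - (d : ℤ) * μ := by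
  have h1 := H587.dvd_of_fixed H.man H.src.1 H.src.2.1 (a := a)
    (fun χ hχ => by rw [H.one χ hχ]) d m h hh hne
  rwa [nsmul_eq_mul] at h1

/-- Weights relative to any fixed point are multiples of `a`. -/
theorem dvd_fix (H : Hom 𝒜 p μ a f) {x : R →ₐ[ℂ] ℂ} {ν : ℤ} (hx : ¬ IsVertex 𝒜 x)
    (hx' : IsFixed 𝒜 x ν) {d : ℕ} {m : ℤ} {h : R} (hh : h ∈ 𝒜 (d, m)) (hne : h ≠ 0) :
    a ∣ m - (d : ℤ) * ν := by
  obtain ⟨g, hg, hgx⟩ := exists_deg_one_ne H.man.gen hx hx'
  have h1 := dvd_rel H hg (fun h0 => hgx (by rw [h0, map_zero]))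
  have h2 := dvd_rel H hh hne
  have e : m - (d : ℤ) * ν = (m - (d : ℤ) * μ) - d * (ν - ((1 : ℕ) : ℤ) * μ) := by
    push_cast
    ring
  rw [e]
  exact dvd_sub h2 (Dvd.dvd.mul_left h1 _)

/-- The standing hypotheses give the situation after Theorem I. -/
theorem Setup.of_hom (H : Hom 𝒜 p μ a f) : Setup 𝒜 a where
  hX := H.man
  hN := H.nef
  ha := H.pos
  wt := by
    intro x ν χ hx hx' hχ
    have ha := H.pos
    have hb := H127.weight_bounds theoremI_all H.man H.nef H.src H.pos hx hx' hχ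
    rw [AddMonoidHom.id_apply] at hb
    obtain ⟨v, hv, hw, hc⟩ := id hχ
    obtain ⟨d, m, h, hh, hne⟩ := hc 0
    rw [zero_mul, zero_mul] at hne
    have h3 := dvd_fix H hx hx' hh (fun h0 => hne (by rw [h0, map_zero]))
    have h4 := hw d m h hh hne
    rw [nsmul_eq_mul] at h4
    have h5 : m - (d : ℤ) * ν = χ := by rw [h4]; ring
    rw [h5] at h3
    obtain ⟨k, hk⟩ := h3
    have h6 : -1 ≤ k := by
      by_contra h
      have : k ≤ -2 := by omega
      nlinarith
    have h7 : k ≤ 1 := by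
      by_contra h
      have : 2 ≤ k := by omega
      nlinarith
    have h8 : k = -1 ∨ k = 0 ∨ k = 1 := by omega
    rcases h8 with rfl | rfl | rfl
    · left; rw [hk]; ring
    · right; left; rw [hk]; ring
    · right; right; rw [hk]; ring
  fld := fun x ν v hx hx' hv hw =>
    (theoremI_all R 𝒜 H.man H.nef p μ a H.pos H.src x ν hx hx').2 v hv hw

/-- The point of the minus cell of `x` with parameter `κ`. -/
noncomputable def pt {s : ℕ} (Y : R →ₐ[ℂ] MvPolynomial (Fin s) ℂ) (κ : Fin s → ℂ) : R →ₐ[ℂ] ℂ :=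
  (MvPolynomial.aeval κ).comp Y

theorem pt_apply {s : ℕ} (Y : R →ₐ[ℂ] MvPolynomial (Fin s) ℂ) (κ : Fin s → ℂ) (h : R) :
    pt Y κ h = MvPolynomial.aeval κ (Y h) := rfl

variable {x : R →ₐ[ℂ] ℂ} {ν : ℤ} {s : ℕ} {Y : R →ₐ[ℂ] MvPolynomial (Fin s) ℂ}

omit [GradedAlgebra 𝒜] in
theorem pt_diag (hY : BB 𝒜 a ν x Y) (κ : Fin s → ℂ) {d : ℕ} {h : R}
    (hh : h ∈ 𝒜 (d, d • ν)) : pt Y κ h = x h := by
  rw [pt_apply, hY.zero d h hh, MvPolynomial.aeval_C]
  rfl

omit [GradedAlgebra 𝒜] in
theorem pt_top (hY : BB 𝒜 a ν x Y) (κ : Fin s → ℂ) {d : ℕ} {m : ℤ} {h : R}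
    (hh : h ∈ 𝒜 (d, m)) (hm : d • ν < m) : pt Y κ h = 0 := by
  rw [pt_apply, hY.top d m h hh hm, map_zero]

/-- A non-zero parameter gives a point with a strictly smaller lowest slope. -/
theorem slope_lt (H : Hom 𝒜 p μ a f) (hx : ¬ IsVertex 𝒜 x) (hx' : IsFixed 𝒜 x ν)
    (hY : BB 𝒜 a ν x Y) {κ : Fin s → ℂ} (hκ : κ ≠ 0) {x0 : R →ₐ[ℂ] ℂ} {ν0 : ℤ}
    (hL : IsLow 𝒜 (pt Y κ) x0 ν0) : ν0 < ν := by
  have ha := H.pos
  -- at most
  have h1 : ν0 ≤ ν := by
    obtain ⟨g, hg, hgx⟩ := exists_deg_one_ne H.man.gen hL.ver hL.fix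
    by_contra hcon
    push Not at hcon
    apply hgx
    have e : ν0 = ((1 : ℕ) : ℤ) * ν0 := by push_cast; ring
    have h2 := hL.eq 1 g (by rw [← e]; exact hg)
    rw [← h2]
    exact pt_top hY κ hg (by rw [one_smul]; exact hcon)
  refine lt_of_le_of_ne h1 ?_
  rintro rfl
  apply hκ
  have h2 : pt Y κ = pt Y 0 := by
    refine algHom_ext_graded 𝒜 ?_
    rintro ⟨d, m⟩ h hh
    rcases lt_trichotomy m (d • ν0) with hm | hm | hm
    · rw [hL.low d m (by rw [← nsmul_eq_mul]; exact hm) h hh]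
      symm
      by_cases h0 : h = 0
      · rw [h0, map_zero]
      obtain ⟨k, hk⟩ := dvd_fix H hx hx' hh h0
      rw [nsmul_eq_mul] at hm
      have hk0 : k < 0 := by
        by_contra hcon
        have : 0 ≤ k := by omega
        nlinarith
      have h3 := hY.hom d m (-k).toNat h hh (by
        rw [Int.toNat_of_nonneg (by omega), nsmul_eq_mul]
        linarith)
      rw [pt_apply]
      have h4 : MvPolynomial.aeval (0 : Fin s → ℂ) (Y h) = MvPolynomial.coeff 0 (Y h) := by
        rw [MvPolynomial.aeval_zero]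
        rfl
      rw [h4]
      apply h3.coeff_eq_zero
      rw [map_zero]
      omega
    · subst hm
      rw [pt_diag hY κ hh, pt_diag hY 0 hh]
    · rw [pt_top hY κ hh hm, pt_top hY 0 hh hm]
  funext i
  obtain ⟨h, hh⟩ := hY.surj (X i)
  have h3 := DFunLike.congr_fun h2 h
  rw [pt_apply, pt_apply, hh, MvPolynomial.aeval_X, MvPolynomial.aeval_X] at h3
  exact h3

/-- Row B. -/
theorem rowB : RowB := by
  intro R _ _ 𝒜 _ p μ a f H x ν hx hx' s Y hY κ hκ
  have ha := H.pos
  have S := Setup.of_hom H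
  have := H.man.domain
  have := H.man.finiteType
  have : IsNoetherianRing R := Algebra.FiniteType.isNoetherianRing ℂ R
  obtain ⟨g1, hg1, hg1x⟩ := exists_deg_one_ne H.man.gen hx hx'
  have hzg1 : pt Y κ g1 ≠ 0 := by
    have e : ν = 1 • ν := (one_smul ℕ ν).symm
    rw [pt_diag (d := 1) hY κ (by rw [← e]; exact hg1)]
    exact hg1x
  have hzv : ¬ IsVertex 𝒜 (pt Y κ) := fun hv => hzg1 (hv 1 ν one_pos g1 hg1)
  obtain ⟨x0, ν0, hL⟩ := exists_low H.man hzv
  have hlt := slope_lt H hx hx' hY hκ hL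
  obtain ⟨D, F, hD, hF, hF', hz⟩ := x2 S hL
  have hD' : ∀ (d : ℕ) (m : ℤ), ∀ h ∈ 𝒜 (d, m), (-(D : R →ₗ[ℂ] R)) h ∈ 𝒜 (d, m - a) :=
    fun d m h hh => Submodule.neg_mem _ (hD d m h hh)
  obtain ⟨g0, hg0, hg0x⟩ := exists_deg_one_ne H.man.gen hL.ver hL.fix
  have hzg0 : pt Y κ g0 ≠ 0 := by
    have e : ν0 = ((1 : ℕ) : ℤ) * ν0 := by push_cast; ring
    rw [hL.eq 1 g0 (by rw [← e]; exact hg0)]
    exact hg0x
  refine ⟨x0, ν0, ((shift κ).comp Y).comp (F.symm : R →ₐ[ℂ] R), hL.ver, hL.fix, hlt, ?_, ?_, ?_⟩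
  · -- the section `f` is fixed by the flow
    have hDf : D f = 0 := by
      refine eq_zero_of_neg H.man.gen H.src.2.1 (fun χ h => (H.src.2.2 χ h).1) H.hf H.pf
        (k := -a) (by linarith) (mem_coarse (hD 1 μ f H.hf) ?_)
      rw [wt_apply]
      push_cast
      ring
    have h1 : IsExpAt (-(D : R →ₗ[ℂ] R)) f (f + (-(D : R →ₗ[ℂ] R)) f) := by
      apply IsExpAt.of_sq
      change -(D (-(D f))) = 0
      rw [hDf, neg_zero, map_zero, neg_zero]
    have h2 : F.symm f = f := by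
      rw [(hF' f).unique h1]
      change f + -(D f) = f
      rw [hDf, neg_zero, add_zero]
    change shift κ (Y (F.symm f)) = _
    rw [h2]
  · intro h
    change constantCoeff (shift κ (Y (F.symm h))) = x0 h
    rw [constantCoeff_shift, ← pt_apply, hz, AlgEquiv.apply_symm_apply]
  · intro η hη hηw
    obtain ⟨c, hc, hc1, hc2, hc3⟩ := exists_lift_low H.nef hlt.le hL
      (fun d m hm h hh => pt_top hY κ hh (by rw [nsmul_eq_mul]; exact hm))
      ⟨g1, hg1, hzg1⟩ ⟨g0, hg0, hzg0⟩ a hη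
    -- `c` is tangent to the minus cell
    have hker : ∀ h, ((shift κ).comp Y) h = 0 → c h = 0 := by
      intro h hh
      have h1 : Y h = 0 := shift_injective κ (by rw [map_zero]; exact hh)
      have h2 := hY.ker h h1
      have key : ∀ y ∈ Ideal.span ({h | ∃ (d : ℕ) (m : ℤ), d • ν < m ∧ h ∈ 𝒜 (d, m)} ∪
          {h | ∃ d : ℕ, ∃ h' ∈ 𝒜 (d, d • ν), h = h' - algebraMap ℂ R (x h')}),
          Y y = 0 ∧ c y = 0 := by
        intro y hy
        have hc0 : c 1 = 0 := by
          have h3 := hc 1 1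
          rw [mul_one, map_one (pt Y κ), one_mul] at h3
          linear_combination -h3
        induction hy using Submodule.span_induction with
        | mem g hg =>
          rcases hg with ⟨d, m, hm, hg⟩ | ⟨d, g', hg', rfl⟩
          · refine ⟨hY.top d m g hg hm, hc1 d m ?_ g hg⟩
            rw [nsmul_eq_mul] at hm
            linarith
          · constructor
            · rw [map_sub, hY.zero d g' hg', AlgHom.commutes]
              exact sub_self _
            · have h3 : c g' = 0 := by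
                refine hc1 d (d • ν) ?_ g' hg'
                rw [nsmul_eq_mul]
                linarith
              rw [map_sub, h3, Algebra.algebraMap_eq_smul_one, map_smul, hc0, smul_zero, sub_zero]
        | zero => exact ⟨map_zero _, map_zero _⟩
        | add u v _ _ hu hv => exact ⟨by rw [map_add, hu.1, hv.1, add_zero], by
            rw [map_add, hu.2, hv.2, add_zero]⟩
        | smul r u _ hu =>
          refine ⟨by rw [smul_eq_mul, map_mul, hu.1, mul_zero], ?_⟩
          rw [smul_eq_mul, hc r u, hu.2, pt_apply, pt_apply, hu.1, map_zero, mul_zero, zero_mul,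
            add_zero]
      exact (key h h2).2
    obtain ⟨κ', hκ'⟩ := exists_direction (Z := (shift κ).comp Y)
      ((shift_surjective κ).comp hY.surj) (c := c) (by
        intro g h
        change c (g * h) = constantCoeff (shift κ (Y g)) * c h +
          constantCoeff (shift κ (Y h)) * c g
        rw [constantCoeff_shift, constantCoeff_shift]
        exact hc g h) hker
    refine ⟨κ', fun d h hh => ?_⟩
    have h1 : c (F.symm h) = c h := by
      have h2 := hF' h c
      have hit : ∀ k : ℕ, (⇑(-(D : R →ₗ[ℂ] R)))^[k] h ∈ 𝒜 (d, d • ν0 - a - k * a) := by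
        intro k
        induction k with
        | zero => simpa using hh
        | succ k ih =>
          rw [Function.iterate_succ_apply']
          have h1 := hD' d _ _ ih
          have e : d • ν0 - a - (k : ℤ) * a - a = d • ν0 - a - ((k + 1 : ℕ) : ℤ) * a := by
            push_cast; ring
          rwa [e] at h1
      have h3 : ∀ k : ℕ, k ∉ Finset.range 1 →
          ((k.factorial : ℂ))⁻¹ * c ((⇑(-(D : R →ₗ[ℂ] R)))^[k] h) = 0 := by
        intro k hk
        rw [Finset.mem_range, not_lt] at hk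
        have h4 : c ((⇑(-(D : R →ₗ[ℂ] R)))^[k] h) = 0 := by
          refine hc2 d _ ?_ _ (hit k)
          have h5 : (1 : ℤ) * a ≤ k * a := by
            have : (1 : ℤ) ≤ k := by exact_mod_cast hk
            nlinarith
          rw [nsmul_eq_mul]
          linarith
        rw [h4, mul_zero]
      have h4 := (hasSum_sum_of_ne_finset_zero h3).unique h2
      rw [Finset.sum_range_one] at h4
      simp only [Nat.factorial_zero, Nat.cast_one, inv_one, one_mul,
        Function.iterate_zero, id_eq] at h4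
      exact h4.symm
    change η h = ∑ i, κ' i * MvPolynomial.coeff (Finsupp.single i 1) (shift κ (Y (F.symm h)))
    have h2 := hκ' (F.symm h)
    change c (F.symm h) = ∑ i, κ' i * MvPolynomial.coeff (Finsupp.single i 1)
      (shift κ (Y (F.symm h))) at h2
    rw [← h2, h1, hc3 d (d • ν0 - a) (by rw [nsmul_eq_mul]) h hh]

end

end Vale.Agent.P280.X
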